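import Vale.Agent.Lib.P182.Saturation

/-!
# Saturation for `Spin(2n)` when one weight is a multiple of the first fundamental weight

For every rank `n ≥ 2`, all dominant integral weights `lam`, `mu` of `Spin(2n)` (spin weights
included) and all `k`: if `lam + mu + k ω_1` lies in the root lattice and
`(V(N lam) ⊗ V(N mu) ⊗ V(N k ω_1))^G ≠ 0` for some `N ≥ 1`, then
`(V(lam) ⊗ V(mu) ⊗ V(k ω_1))^G ≠ 0`.
-/

namespace Vale.Agent.Results.P182.PieriSaturation

open Vale.Agent.Lib.P182

theorem result (n : ℕ) (hn : 2 ≤ n) (lam mu : Wt n) (k N : ℕ) (hN : 1 ≤ N)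
    (hlam : IsWeight lam ∧ IsDominant lam) (hmu : IsWeight mu ∧ IsDominant mu)
    (hQ : InRootLattice (lam + mu + k • omega1 n))
    (h : invDim (N • lam) (N • mu) (N • (k • omega1 n)) ≠ 0) :
    invDim lam mu (k • omega1 n) ≠ 0 := by
  obtain ⟨m, rfl⟩ : ∃ m, n = m + 2 := ⟨n - 2, by omega⟩
  exact saturation_pieri_aux m lam mu k N hN hlam.1 hlam.2 hmu.2 hQ h

end Vale.Agent.Results.P182.PieriSaturation
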